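import Vale.Agent.Lib.P335.Assembly
import Vale.Agent.Lib.P335.DisjSum
import Vale.Agent.Lib.P335.TripleTransport

/-!
# The Kannan-Tetali-Vempala conjecture for simple graphs

For every `n ≥ 4` and every graphical degree vector `d` on `Fin n`, the switch chain `P_d`
is within total variation distance `1/4` of uniform at every time `t ≥ n ^ 6`, from every start.
Hence `t_mix(d) ≤ n ^ 6`.
-/

namespace Vale.Agent.Results.P335.A_KTV

open Finset Vale.Agent.Lib.P335 Vale.Agent.Lib.P335.Triple

variable {n : ℕ} {d : Fin n → ℕ}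

/-- The sum over ordered disjoint pairs is nonnegative. -/
theorem quadSum_nonneg' (f : Rz d → ℝ) : 0 ≤ quadSum f := by
  have h := disj_nonneg f
  have e : quadSum f
      = ∑ i, ∑ j, ∑ k, ∑ l, (if D4 i j k l then ip (rowProj i j f) (rowProj k l f) else 0) := by
    unfold quadSum
    refine sum_congr rfl fun i _ => sum_congr rfl fun j _ => sum_congr rfl fun k _ =>
      sum_congr rfl fun l _ => ?_
    by_cases hD : D4 i j k l
    · rw [if_pos hD, if_pos ⟨hD.ij, hD.ik, hD.il, hD.jk, hD.jl, hD.kl⟩]
    · rw [if_neg hD, if_neg]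
      rintro ⟨h1, h2, h3, h4, h5, h6⟩
      exact hD ⟨h1, h2, h3, h4, h5, h6⟩
  rw [e]
  exact h

/-- The main inequality: the sum of the row pair projections has gap one on mean-zero functions. -/
theorem hVar_all (f : Rz d → ℝ) (hf : ∑ G, f G = 0) :
    ip f f ≤ ∑ i, ∑ j, if i ≠ j then ip (rowProj i j f) (rowProj i j f) else 0 :=
  hVar_of_parts quadSum_nonneg' (fun g _ _ _ hij hik hjk => triple_square hij hik hjk g) f hf

end Vale.Agent.Results.P335.A_KTV

open Vale.Agent.Lib.P335 in
/-- **The Kannan-Tetali-Vempala conjecture for simple graphs.** For every `n ≥ 4` and every graphical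
`d`, the switch chain `P_d` has total variation distance at most `1/4` from uniform at every time
`t ≥ n ^ 6`, from every starting graph; consequently `t_mix(d) ≤ n ^ 6`. -/
theorem Vale.Agent.Results.P335.A_KTV.result (n : ℕ) (hn : 4 ≤ n) (d : Fin n → ℕ)
    (hd : Graphical d) :
    (∀ t, n ^ 6 ≤ t → MixedAt d t) ∧ tmix d ≤ n ^ 6 := by
  have : Nonempty (Omega d) := hd
  exact tmix_le_of_rowProj hn d Vale.Agent.Results.P335.A_KTV.hVar_all

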