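import Vale.Agent.Lib.P335.Graph

open Finset Vale.Agent.Lib.P335

open Classical in
/-- The switch chain on graphs with a split-tight degree sequence mixes within `n ^ 6` steps. -/
theorem Vale.Agent.Results.P335.A_main.result (n : ℕ) (hn : 4 ≤ n) (d : Fin n → ℕ)
    (A : Finset (Fin n))
    (htight : ∑ v ∈ A, d v = A.card * (A.card - 1) + ∑ v ∈ Aᶜ, d v)
    (G : SimpleGraph (Fin n)) (hG : G ∈ realizations d) (k : ℕ) (hk : n ^ 6 ≤ k) :
    tvUnif (fourTuples n) graphStep (realizations d) k G ≤ 1 / 4 :=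
  split_mixing hn htight hG hk
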